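import Vale.Agent.P245.H411.Tone

open MeasureTheory Real Set

open scoped NNReal

namespace Vale.Agent.P245

/-- Kantorovich transport inequality for all log-concave tilts `ρ = e^{-G} μ / Z`, `G` convex and
Lipschitz: `W₁(μ, ρ)² ≤ C a² (H(ρ|μ) + H(μ|ρ))`. -/
def TiltTransport {n : ℕ} (μ : Measure (EuclideanSpace ℝ (Fin n))) (C a : ℝ) : Prop :=
  ∀ G : EuclideanSpace ℝ (Fin n) → ℝ, (∃ L : ℝ≥0, LipschitzWith L G) → ConvexOn ℝ univ G →
    ∀ v : EuclideanSpace ℝ (Fin n) → ℝ, LipschitzWith 1 v →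
      (∫ x, v x ∂μ - ∫ x, v x ∂(μ.tilted fun x => -G x)) ^ 2 ≤
        C * a ^ 2 * (∫ x, G x ∂μ - ∫ x, G x ∂(μ.tilted fun x => -G x))

namespace H411

theorem tiltTransport_of {C0 : ℝ} (hC0 : 0 < C0) (hK : H607.KLS C0) {C : ℝ}
    (hC : (2 * √C0 + 4) ^ 2 ≤ C) {n : ℕ} {μ : Measure (EuclideanSpace ℝ (Fin n))}
    [IsProbabilityMeasure μ] (hlc : HasLogConcaveDensity μ) {a : ℝ} (ha : 0 < a)
    (hsub : LinearlySubgaussian μ a) : TiltTransport μ C a := by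
  rintro G ⟨L, hG⟩ hconv v hv
  have h := tilt_transport ha hC0 hK hlc hsub hG hconv hv
  have h1 : 0 ≤ (2 * √C0 + 4) ^ 2 * a ^ 2 *
      (∫ x, G x ∂μ - ∫ x, G x ∂(μ.tilted fun x => -G x)) := (sq_nonneg _).trans h
  have hc : 0 < (2 * √C0 + 4) ^ 2 * a ^ 2 := by positivity
  have h2 : 0 ≤ ∫ x, G x ∂μ - ∫ x, G x ∂(μ.tilted fun x => -G x) := by
    by_contra hcon
    push Not at hcon
    have := mul_neg_of_pos_of_neg hc hcon
    linarith
  refine h.trans (mul_le_mul_of_nonneg_right ?_ h2)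
  exact mul_le_mul_of_nonneg_right hC (sq_nonneg a)

end H411

end Vale.Agent.P245
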