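import Vale.Agent.P245.H411.Mono
import Vale.Agent.P245.H902.Clause
import Vale.Agent.P245.H847.Multi

/-!
P245: the hand-in with the transport inequality between log-concave laws (902).
-/

open MeasureTheory
open scoped ContDiff

namespace Vale.Agent.P245.H411

open Vale.Agent.P245 Vale.Agent.P245.H847

theorem handin8 (h : ∃ C : ℝ, 0 < C ∧ H607.KLS C) :
    ∃ C : ℝ, 0 < C ∧ ∀ (n : ℕ) (μ : Measure (EuclideanSpace ℝ (Fin n))) [IsProbabilityMeasure μ],
      HasLogConcaveDensity μ →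
      DFP.AffinePoincare μ C ∧
      (∀ Λ : ℝ, 0 ≤ Λ → DFP.CovarianceLE μ Λ → DFP.SmoothInequalities μ (C * Λ)) ∧
      (∀ a : ℝ, 0 < a → LinearlySubgaussian μ a →
        DFP.SmoothInequalities μ (C * a ^ 2) ∧ DFP.MultipeakLogSobolev μ (C * a ^ 2) ∧
        DFP.PolynomialLogSobolev μ (C * a ^ 2) ∧ DFP.KurtosisLogSobolev μ (C * a ^ 2) ∧
        DFP.ConvexIsoperimetry μ C a ∧ DFP.ConvexConcentration μ C a ∧ LogConcaveTransport μ C a ∧
        LogConcaveTiltConcentration μ C a) := by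
  obtain ⟨C, hC, h1⟩ := handin6 h
  obtain ⟨C0, hC0, hK⟩ := h
  refine ⟨C + (2 * √C0 + 4) ^ 2, by positivity, fun n μ _ hlc => ?_⟩
  have hp : Parts μ C := h1 n μ hlc
  have hle : C ≤ C + (2 * √C0 + 4) ^ 2 := by linarith [sq_nonneg (2 * √C0 + 4)]
  obtain ⟨g1, g2, g3⟩ := mono_parts hC hle hp
  refine ⟨g1, g2, fun a ha hsub => ?_⟩
  obtain ⟨f1, f2, f3, f4, f5, f6⟩ := g3 a ha hsub
  exact ⟨f1, f2, f3, f4, f5, f6, H902.logConcaveTransport_of hC0 hK (by linarith) ha hsub,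
    H902.logConcaveTiltConcentration_of hC0 hK (by linarith) ha hsub⟩

end Vale.Agent.P245.H411
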