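import Vale.Agent.P245.H847.HandIn5

/-!
P245: monotonicity in the constant of the parts of `DimensionFreePoincare`.
-/

open MeasureTheory Matrix
open scoped ContDiff

namespace Vale.Agent.P245.H411

open Vale.Agent.P245 Vale.Agent.P245.H847

variable {n : ℕ} {μ : Measure (EuclideanSpace ℝ (Fin n))}

theorem mono_affine [IsProbabilityMeasure μ] {C D : ℝ} (hC : 0 < C) (hCD : C ≤ D)
    (h : DFP.AffinePoincare μ C) : DFP.AffinePoincare μ D := by
  intro b K hb hK f hf hfc
  have g1 := h b K hb hK f hf hfc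
  have hv0 : 0 ≤ ∫ x, ∑ i, ∑ j, K i j * (gradient f x i * gradient f x j) ∂μ := by
    refine le_of_mul_le_mul_left ?_ hC
    rw [mul_zero]
    exact (var_nonneg hf.continuous hfc).trans g1
  exact g1.trans (mul_le_mul_of_nonneg_right hCD hv0)

theorem mono_smooth [IsProbabilityMeasure μ] {C D : ℝ} (hC : 0 ≤ C) (hCD : C ≤ D)
    (h : DFP.SmoothInequalities μ C) : DFP.SmoothInequalities μ D := by
  intro f hf hfc
  obtain ⟨h1, h2, h3, h4⟩ := h f hf hfc
  have hI : 0 ≤ ∫ x, ‖gradient f x‖ ^ 2 ∂μ := integral_nonneg fun x => by positivity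
  refine ⟨h1.trans (mul_le_mul_of_nonneg_right hCD hI), ?_, ?_, fun p hp => ?_⟩
  · refine h2.trans (mul_le_mul_of_nonneg_right hCD ?_)
    have cgf : Continuous fun x => gradient f x := by
      unfold gradient
      exact (LinearIsometryEquiv.continuous _).comp (hf.continuous_fderiv (by simp))
    have hcf : HasCompactSupport fun x => gradient f x := by
      have := (hfc.fderiv (𝕜 := ℝ)).comp_left
        (g := fun L => (InnerProductSpace.toDual ℝ (EuclideanSpace ℝ (Fin n))).symm L) (by simp)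
      exact this
    have cu : Continuous fun x => ‖gradient f x‖ ^ 2 := cgf.norm.pow 2
    have hcu : HasCompactSupport fun x => ‖gradient f x‖ ^ 2 :=
      hcf.norm.comp_left (g := fun t : ℝ => t ^ 2) (by simp)
    have := H89.ent_nonneg (μ := μ) cu hcu (fun x => sq_nonneg _)
    linarith only [this, hI]
  · exact h3.trans (mul_le_mul_of_nonneg_right hCD (log_form_nonneg f))
  · refine (h4 p hp).trans ?_
    have h1 : 0 ≤ p / (p - 2) := div_nonneg (by linarith only [hp]) (by linarith only [hp])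
    have h2 : 0 ≤ (∫ x, ‖gradient f x‖ ^ p ∂μ) ^ (2 / p) :=
      Real.rpow_nonneg (integral_nonneg fun x => by positivity) _
    gcongr

theorem mono_multi {C D : ℝ} (hCD : C ≤ D)
    (h : DFP.MultipeakLogSobolev μ C) : DFP.MultipeakLogSobolev μ D := by
  intro f hf hfc T hT hq
  refine (h f hf hfc T hT hq).trans ?_
  have hl : 0 ≤ 1 + Real.log (1 + T ^ 2 / ∫ x, f x ^ 2 ∂μ) := by
    have h0 : 0 ≤ ∫ y, f y ^ 2 ∂μ := integral_nonneg fun x => sq_nonneg _
    have h1 : 0 ≤ T ^ 2 / ∫ y, f y ^ 2 ∂μ := by positivity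
    have h2 : 0 ≤ Real.log (1 + T ^ 2 / ∫ y, f y ^ 2 ∂μ) :=
      Real.log_nonneg (by linarith only [h1])
    linarith only [h2]
  have hI : 0 ≤ ∫ x, ‖gradient f x‖ ^ 2 ∂μ := integral_nonneg fun x => by positivity
  gcongr

theorem mono_poly {C D : ℝ} (hCD : C ≤ D)
    (h : DFP.PolynomialLogSobolev μ C) : DFP.PolynomialLogSobolev μ D := by
  intro d q hq f hfq
  refine (h d q hq f hfq).trans ?_
  have hI : 0 ≤ ∫ x, ‖gradient f x‖ ^ 2 ∂μ := integral_nonneg fun x => by positivity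
  gcongr

theorem mono_kurt {C D : ℝ} (hCD : C ≤ D)
    (h : DFP.KurtosisLogSobolev μ C) : DFP.KurtosisLogSobolev μ D := by
  intro f hf hfc k hk hfk
  refine (h f hf hfc k hk hfk).trans ?_
  have hI : 0 ≤ ∫ x, ‖gradient f x‖ ^ 2 ∂μ := integral_nonneg fun x => by positivity
  have hl : 0 ≤ 1 + Real.log k := by
    have := Real.log_nonneg hk
    linarith only [this]
  gcongr

theorem mono_iso {C D a : ℝ} (hC : 0 < C) (ha : 0 < a) (hCD : C ≤ D)
    (h : DFP.ConvexIsoperimetry μ C a) : DFP.ConvexIsoperimetry μ D a := by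
  refine ⟨fun A hA hAc hA0 hA1 r hr0 hra => ?_, fun Ω hΩ hne => ?_⟩
  · refine le_trans ?_ (h.1 A hA hAc hA0 hA1 r hr0 hra)
    refine mul_le_mul_of_nonneg_left ?_ hA0.le
    have hnum : 0 ≤ r * √(Real.log (1 / μ.real A)) := mul_nonneg hr0 (Real.sqrt_nonneg _)
    have := div_le_div_of_nonneg_left hnum (show 0 < C * a by positivity)
      (mul_le_mul_of_nonneg_right hCD ha.le)
    linarith only [this]
  · exact (h.2 Ω hΩ hne).trans (Real.exp_le_exp.2 (by gcongr))

theorem mono_conc {C D a : ℝ} (hC : 0 < C) (ha : 0 < a) (hCD : C ≤ D)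
    (h : DFP.ConvexConcentration μ C a) : DFP.ConvexConcentration μ D a := by
  intro F hF hFc t ht
  refine ⟨(h F hF hFc t ht).1.trans (Real.exp_le_exp.2 (by gcongr)),
    (h F hF hFc t ht).2.trans (Real.exp_le_exp.2 (by gcongr))⟩

/-- all parts of the hand-in, one measure -/
def Parts (μ : Measure (EuclideanSpace ℝ (Fin n))) (C : ℝ) : Prop :=
  DFP.AffinePoincare μ C ∧
      (∀ Λ : ℝ, 0 ≤ Λ → DFP.CovarianceLE μ Λ → DFP.SmoothInequalities μ (C * Λ)) ∧
      (∀ a : ℝ, 0 < a → LinearlySubgaussian μ a →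
        DFP.SmoothInequalities μ (C * a ^ 2) ∧ DFP.MultipeakLogSobolev μ (C * a ^ 2) ∧
        DFP.PolynomialLogSobolev μ (C * a ^ 2) ∧ DFP.KurtosisLogSobolev μ (C * a ^ 2) ∧
        DFP.ConvexIsoperimetry μ C a ∧ DFP.ConvexConcentration μ C a)

theorem mono_parts [IsProbabilityMeasure μ] {C D : ℝ} (hC : 0 < C) (hCD : C ≤ D)
    (h : Parts μ C) : Parts μ D := by
  obtain ⟨h1, h2, h3⟩ := h
  refine ⟨mono_affine hC hCD h1, fun Λ hΛ0 hΛ => mono_smooth (by positivity)
    (mul_le_mul_of_nonneg_right hCD hΛ0) (h2 Λ hΛ0 hΛ), fun a ha hsub => ?_⟩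
  have ha2 : 0 ≤ a ^ 2 := sq_nonneg a
  have e := mul_le_mul_of_nonneg_right hCD ha2
  obtain ⟨g1, g2, g3, g4, g5, g6⟩ := h3 a ha hsub
  exact ⟨mono_smooth (by positivity) e g1, mono_multi e g2, mono_poly e g3, mono_kurt e g4,
    mono_iso hC ha hCD g5, mono_conc hC ha hCD g6⟩

end Vale.Agent.P245.H411
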