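import Vale.Agent.P245.H411.Semi
import Vale.Agent.P245.H607.Tele

open MeasureTheory Real Set Filter Topology
open scoped ENNReal ContDiff

namespace Vale.Agent.P245.H411

open Vale.Agent.P245.H607

variable {n : ℕ} {μ : Measure (EuclideanSpace ℝ (Fin n))} {F : EuclideanSpace ℝ (Fin n) → ℝ}

/-- one step, smooth functions -/
theorem one_stepC (h : Std μ F) {A : ℝ} (hA : 0 ≤ A) {u : EuclideanSpace ℝ (Fin n) → ℝ}
    (hu : CA A u) {s r C0 τ ε κ : ℝ} (hC0 : 0 < C0) (hτ : 0 < τ) (hε : 0 < ε)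
    (Kop : EuclideanSpace ℝ (Fin n) →L[ℝ] EuclideanSpace ℝ (Fin n))
    (hK0 : ∀ w, 0 ≤ inner ℝ (Kop w) w) (hKκ : ∀ w, ‖Kop w‖ ≤ κ * ‖w‖) (hκ : 0 ≤ κ)
    (hP : (∫ x, u x ^ 2 ∂(nu μ F s)) - (∫ x, u x ∂(nu μ F s)) ^ 2
      ≤ C0 * ∫ x, inner ℝ (Kop (gradient u x)) (gradient u x) ∂(nu μ F s)) :
    ∫ x, H607.step (τ • (Kop + ε • ContinuousLinearMap.id ℝ _)) u x ∂(nu μ F s)
        - ∫ x, u x ∂(nu μ F (s + r))
      ≤ A / 2 * (τ * (κ + ε)) ^ 2
        + C0 / (2 * τ) * (exp (GG μ F (s + 2 * r) - 2 * GG μ F (s + r) + GG μ F s) - 1) := by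
  have hp := h.prob_nu s
  set ν := nu μ F s with hν
  set T := τ • (Kop + ε • ContinuousLinearMap.id ℝ (EuclideanSpace ℝ (Fin n))) with hT
  have hTw : ∀ w, T w = τ • (Kop w + ε • w) := fun w => by
    rw [hT]; rfl
  have hTin : ∀ w, inner ℝ (T w) w = τ * (inner ℝ (Kop w) w + ε * ‖w‖ ^ 2) := by
    intro w
    rw [hTw, inner_smul_left, inner_add_left, inner_smul_left, real_inner_self_eq_norm_sq]
    simp
  have hT1 : ∀ w, τ * ε * ‖w‖ ^ 2 ≤ inner ℝ (T w) w := by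
    intro w
    rw [hTin]
    have := mul_nonneg hτ.le (hK0 w)
    nlinarith
  set q : EuclideanSpace ℝ (Fin n) → ℝ := fun x => inner ℝ (Kop (gradient u x)) (gradient u x)
    with hq
  have hgc : Continuous (fun x => gradient u x) := by
    have h1 := hu.diff.continuous_fderiv (by norm_num)
    have h2 : (fun x => gradient u x)
        = fun x => (InnerProductSpace.toDual ℝ (EuclideanSpace ℝ (Fin n))).symm (fderiv ℝ u x) := by
      funext x; rfl
    rw [h2]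
    exact (LinearIsometryEquiv.continuous _).comp h1
  have hqc : Continuous q := (Kop.continuous.comp hgc).inner hgc
  have hq0 : ∀ x, 0 ≤ q x := fun x => hK0 _
  have hq1 : ∀ x, q x ≤ κ := by
    intro x
    have h1 : q x ≤ ‖Kop (gradient u x)‖ * ‖gradient u x‖ := real_inner_le_norm _ _
    have h2 := hKκ (gradient u x)
    have h3 := hu.grad_le x
    have h4 := norm_nonneg (gradient u x)
    have h5 : ‖Kop (gradient u x)‖ ≤ κ := h2.trans (by nlinarith)
    have h6 := norm_nonneg (Kop (gradient u x))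
    nlinarith
  have iq : Integrable q ν := by
    apply Integrable.of_bound hqc.aestronglyMeasurable κ
    refine Eventually.of_forall fun x => ?_
    rw [Real.norm_of_nonneg (hq0 x)]
    exact hq1 x
  have hpt : ∀ x, H607.step T u x ≤ u x - τ / 2 * q x + A / 2 * (τ * (κ + ε)) ^ 2 := by
    intro x
    have h1 := hu.step_le (T := T) (mul_pos hτ hε) hT1 x
    rw [hTin] at h1
    have h2 : ‖T (gradient u x)‖ ≤ τ * (κ + ε) := by
      rw [hTw, norm_smul, Real.norm_of_nonneg hτ.le]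
      apply mul_le_mul_of_nonneg_left _ hτ.le
      have h3 := hKκ (gradient u x)
      have h4 := hu.grad_le x
      have h5 := norm_nonneg (gradient u x)
      calc ‖Kop (gradient u x) + ε • gradient u x‖ ≤ ‖Kop (gradient u x)‖ + ‖ε • gradient u x‖ :=
            norm_add_le _ _
        _ ≤ κ * ‖gradient u x‖ + ε * ‖gradient u x‖ := by
            rw [norm_smul, Real.norm_of_nonneg hε.le]; linarith
        _ ≤ κ + ε := by nlinarith
    have h3 : ‖T (gradient u x)‖ ^ 2 ≤ (τ * (κ + ε)) ^ 2 :=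
      pow_le_pow_left₀ (norm_nonneg _) h2 2
    have h4 : 0 ≤ τ * ε * ‖gradient u x‖ ^ 2 := by positivity
    have h5 : A / 2 * ‖T (gradient u x)‖ ^ 2 ≤ A / 2 * (τ * (κ + ε)) ^ 2 :=
      mul_le_mul_of_nonneg_left h3 (by positivity)
    have h6 : q x = inner ℝ (Kop (gradient u x)) (gradient u x) := rfl
    rw [h6]
    nlinarith
  have iu : Integrable u ν := integrable_lip h s hu.lip
  have is : Integrable (H607.step T u) ν :=
    integrable_lip h s (step_lip hu.lip (mul_pos hτ hε) hT1)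
  have h1 : ∫ x, H607.step T u x ∂ν ≤ ∫ x, (u x - τ / 2 * q x + A / 2 * (τ * (κ + ε)) ^ 2) ∂ν :=
    integral_mono is ((iu.sub (iq.const_mul _)).add (integrable_const _)) hpt
  have h2 : ∫ x, (u x - τ / 2 * q x + A / 2 * (τ * (κ + ε)) ^ 2) ∂ν
      = ∫ x, u x ∂ν - τ / 2 * ∫ x, q x ∂ν + A / 2 * (τ * (κ + ε)) ^ 2 := by
    have c1 : ∫ x, (u x - τ / 2 * q x + A / 2 * (τ * (κ + ε)) ^ 2) ∂ν
        = ∫ x, (u x - τ / 2 * q x) ∂ν + ∫ _x, A / 2 * (τ * (κ + ε)) ^ 2 ∂ν :=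
      integral_add (iu.sub (iq.const_mul _)) (integrable_const _)
    have c2 : ∫ x, (u x - τ / 2 * q x) ∂ν = ∫ x, u x ∂ν - τ / 2 * ∫ x, q x ∂ν := by
      rw [integral_sub iu (iq.const_mul _), integral_const_mul]
    rw [c1, c2, integral_const]
    simp
  have h3 := shift_le h (r := r) (s := s) hu.lip (θ := τ / C0) (by positivity)
  have h4 : τ / C0 / 2 * ((∫ x, u x ^ 2 ∂ν) - (∫ x, u x ∂ν) ^ 2)
      ≤ τ / C0 / 2 * (C0 * ∫ x, q x ∂ν) :=
    mul_le_mul_of_nonneg_left hP (by positivity)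
  have h5 : τ / C0 / 2 * (C0 * ∫ x, q x ∂ν) = τ / 2 * ∫ x, q x ∂ν := by
    field_simp
  have h6 : 1 / (2 * (τ / C0)) = C0 / (2 * τ) := by
    field_simp
  rw [h6] at h3
  linarith



/-- one step, semiconcave functions -/
theorem one_stepS (h : Std μ F) {A : ℝ} (hA : 0 ≤ A) {u : EuclideanSpace ℝ (Fin n) → ℝ}
    (hu : SC A u) {s r C0 τ ε κ : ℝ} (hC0 : 0 < C0) (hτ : 0 < τ) (hε : 0 < ε)
    (Kop : EuclideanSpace ℝ (Fin n) →L[ℝ] EuclideanSpace ℝ (Fin n))
    (hK0 : ∀ w, 0 ≤ inner ℝ (Kop w) w) (hKκ : ∀ w, ‖Kop w‖ ≤ κ * ‖w‖) (hκ : 0 ≤ κ)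
    (hP : ∀ f : EuclideanSpace ℝ (Fin n) → ℝ, CA A f →
      (∫ x, f x ^ 2 ∂(nu μ F s)) - (∫ x, f x ∂(nu μ F s)) ^ 2
      ≤ C0 * ∫ x, inner ℝ (Kop (gradient f x)) (gradient f x) ∂(nu μ F s)) :
    ∫ x, H607.step (τ • (Kop + ε • ContinuousLinearMap.id ℝ _)) u x ∂(nu μ F s)
        - ∫ x, u x ∂(nu μ F (s + r))
      ≤ A / 2 * (τ * (κ + ε)) ^ 2
        + C0 / (2 * τ) * (exp (GG μ F (s + 2 * r) - 2 * GG μ F (s + r) + GG μ F s) - 1) := by
  have hp := h.prob_nu s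
  have hp' := h.prob_nu (s + r)
  set T := τ • (Kop + ε • ContinuousLinearMap.id ℝ (EuclideanSpace ℝ (Fin n))) with hT
  have hTw : ∀ w, T w = τ • (Kop w + ε • w) := fun w => by
    rw [hT]; rfl
  have hTin : ∀ w, inner ℝ (T w) w = τ * (inner ℝ (Kop w) w + ε * ‖w‖ ^ 2) := by
    intro w
    rw [hTw, inner_smul_left, inner_add_left, inner_smul_left, real_inner_self_eq_norm_sq]
    simp
  have hT1 : ∀ w, τ * ε * ‖w‖ ^ 2 ≤ inner ℝ (T w) w := by
    intro w
    rw [hTin]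
    have := mul_nonneg hτ.le (hK0 w)
    nlinarith
  set B := A / 2 * (τ * (κ + ε)) ^ 2
        + C0 / (2 * τ) * (exp (GG μ F (s + 2 * r) - 2 * GG μ F (s + r) + GG μ F s) - 1) with hB
  have key : ∀ m : ℕ, ∫ x, H607.step T u x ∂(nu μ F s) - ∫ x, u x ∂(nu μ F (s + r))
      ≤ B + 2 * (1 / ((m : ℝ) + 1)) := by
    intro m
    have hm := hu.mol m
    have h1 := one_stepC h hA hm (s := s) (r := r) (κ := κ) hC0 hτ hε Kop hK0 hKκ hκ (hP _ hm)
    rw [← hT, ← hB] at h1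
    have hn := hu.mol_near m
    have i1 := integrable_lip h s (step_lip hu.lip (mul_pos hτ hε) hT1)
    have i2 := integrable_lip h s (step_lip hm.lip (mul_pos hτ hε) hT1)
    have i3 := integrable_lip h (s + r) hu.lip
    have i4 := integrable_lip h (s + r) hm.lip
    have h2 : ∫ x, H607.step T u x ∂(nu μ F s)
        ≤ ∫ x, H607.step T (mol u m) x ∂(nu μ F s) + 1 / ((m : ℝ) + 1) := by
      have h3 : ∫ x, H607.step T u x ∂(nu μ F s)
          ≤ ∫ x, (H607.step T (mol u m) x + 1 / ((m : ℝ) + 1)) ∂(nu μ F s) := by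
        refine integral_mono i1 (i2.add (integrable_const _)) fun x => ?_
        exact step_mono hu.lip hm.lip (mul_pos hτ hε) hT1
          (fun y => by have := (abs_le.1 (hn y)).1; linarith) x
      rw [integral_add i2 (integrable_const _), integral_const] at h3
      simpa using h3
    have h4 : ∫ x, mol u m x ∂(nu μ F (s + r))
        ≤ ∫ x, u x ∂(nu μ F (s + r)) + 1 / ((m : ℝ) + 1) := by
      have h3 : ∫ x, mol u m x ∂(nu μ F (s + r))
          ≤ ∫ x, (u x + 1 / ((m : ℝ) + 1)) ∂(nu μ F (s + r)) := by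
        refine integral_mono i4 (i3.add (integrable_const _)) fun x => ?_
        have := (abs_le.1 (hn x)).2
        linarith
      rw [integral_add i3 (integrable_const _), integral_const] at h3
      simpa using h3
    linarith
  have hlim : Tendsto (fun m : ℕ => B + 2 * (1 / ((m : ℝ) + 1))) atTop (𝓝 (B + 2 * 0)) :=
    tendsto_const_nhds.add (tendsto_one_div_add_atTop_nhds_zero_nat.const_mul 2)
  have := ge_of_tendsto' hlim key
  linarith

/-- telescoping, any Lipschitz test function -/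
theorem teleS (h : Std μ F) {A : ℝ} (hA : 0 < A) {v : EuclideanSpace ℝ (Fin n) → ℝ}
    (hlip : ∀ x y, v x - v y ≤ ‖x - y‖)
    {r C0 τ ε κ : ℝ} (hC0 : 0 < C0) (hτ : 0 < τ) (hε : 0 < ε) (hκ : 0 ≤ κ) (N : ℕ)
    (Kop : ℕ → (EuclideanSpace ℝ (Fin n) →L[ℝ] EuclideanSpace ℝ (Fin n)))
    (hK0 : ∀ i, ∀ w, 0 ≤ inner ℝ (Kop i w) w)
    (hKκ : ∀ i, i < N → ∀ w, ‖Kop i w‖ ≤ κ * ‖w‖)
    (hP : ∀ i, i < N → ∀ u : EuclideanSpace ℝ (Fin n) → ℝ, CA A u →
      (∫ x, u x ^ 2 ∂(nu μ F (i * r))) - (∫ x, u x ∂(nu μ F (i * r))) ^ 2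
      ≤ C0 * ∫ x, inner ℝ (Kop i (gradient u x)) (gradient u x) ∂(nu μ F (i * r))) :
    ∫ x, U (TS A τ ε N Kop) v (N + 1) x ∂(nu μ F 0) - ∫ x, v x ∂(nu μ F (N * r))
      ≤ N * (A / 2 * (τ * (κ + ε)) ^ 2)
        + C0 / (2 * τ) * ∑ i ∈ Finset.range N, (exp (dd μ F r i) - 1) := by
  have hTc := TS_coer (N := N) (Kop := Kop) hA hτ hε hK0
  have key : ∀ k, k ≤ N → ∫ x, U (TS A τ ε N Kop) v (k + 1) x ∂(nu μ F (((N - k : ℕ) : ℝ) * r))
      - ∫ x, v x ∂(nu μ F (N * r))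
      ≤ k * (A / 2 * (τ * (κ + ε)) ^ 2)
        + C0 / (2 * τ) * ∑ j ∈ Finset.range k, (exp (dd μ F r (N - 1 - j)) - 1) := by
    intro k
    induction k with
    | zero =>
      intro _
      simp only [Nat.sub_zero, Nat.cast_zero, zero_mul, Finset.range_zero, Finset.sum_empty,
        mul_zero, add_zero]
      rw [sub_nonpos]
      apply integral_mono (integrable_lip h _ (U_lip hlip hTc _)) (integrable_lip h _ hlip)
      intro x
      exact U_le hlip hTc _ x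
    | succ k ih =>
      intro hk
      have ih' := ih (by omega)
      have hi : N - 1 - k < N := by omega
      have hUA := U_SC (TT := TS A τ ε N Kop) hA hlip hTc rfl k
      have h1 := one_stepS h hA.le hUA (s := ((N - 1 - k : ℕ) : ℝ) * r) (r := r) (κ := κ) hC0 hτ hε
        (Kop (N - 1 - k)) (hK0 _) (hKκ _ hi) hκ (hP _ hi)
      have e1 : ((N - 1 - k : ℕ) : ℝ) * r + r = ((N - k : ℕ) : ℝ) * r := by
        have : (N - k : ℕ) = (N - 1 - k) + 1 := by omega
        rw [this]; push_cast; ring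
      have e2 : (N - (k + 1) : ℕ) = N - 1 - k := by omega
      have e3 : exp (GG μ F (((N - 1 - k : ℕ) : ℝ) * r + 2 * r)
          - 2 * GG μ F (((N - 1 - k : ℕ) : ℝ) * r + r) + GG μ F (((N - 1 - k : ℕ) : ℝ) * r))
          = exp (dd μ F r (N - 1 - k)) := rfl
      rw [e3, e1] at h1
      rw [e2, Finset.sum_range_succ]
      have e4 : U (TS A τ ε N Kop) v (k + 1 + 1)
          = H607.step (τ • (Kop (N - 1 - k) + ε • ContinuousLinearMap.id ℝ _))
            (U (TS A τ ε N Kop) v (k + 1)) := rfl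
      rw [e4]
      push_cast
      nlinarith
  have h1 := key N le_rfl
  simp only [Nat.sub_self, Nat.cast_zero, zero_mul] at h1
  rw [Finset.sum_range_reflect (fun i => exp (dd μ F r i) - 1) N] at h1
  exact h1



end Vale.Agent.P245.H411
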