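import Vale.Agent.P245.H607.Ext
import Vale.Agent.P245.H607.OneStep

open MeasureTheory Real Set Filter Topology
open scoped ENNReal ContDiff

namespace Vale.Agent.P245.H411

open Vale.Agent.P245.H607

variable {n : ℕ}

/-- `1`-Lipschitz and `A`-semiconcave functions -/
structure SC (A : ℝ) (u : EuclideanSpace ℝ (Fin n) → ℝ) : Prop where
  lip : ∀ x y, u x - u y ≤ ‖x - y‖
  semi : ∀ x, ∃ p : EuclideanSpace ℝ (Fin n), ∀ w, u (x + w) ≤ u x + inner ℝ p w + A / 2 * ‖w‖ ^ 2

/-- `1`-Lipschitz, `C¹` and `A`-semiconcave functions -/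
structure CA (A : ℝ) (u : EuclideanSpace ℝ (Fin n) → ℝ) : Prop where
  diff : ContDiff ℝ 1 u
  lip : ∀ x y, u x - u y ≤ ‖x - y‖
  up : ∀ x w, u (x + w) ≤ u x + inner ℝ (gradient u x) w + A / 2 * ‖w‖ ^ 2

variable {u : EuclideanSpace ℝ (Fin n) → ℝ}
  {T : EuclideanSpace ℝ (Fin n) →L[ℝ] EuclideanSpace ℝ (Fin n)} {ε : ℝ}

theorem SC.step {A : ℝ} (hu : SC A u) (hε : 0 < ε)
    (hT : ∀ w, ε * ‖w‖ ^ 2 ≤ inner ℝ (T w) w) : SC A (H607.step T u) :=
  ⟨step_lip hu.lip hε hT, step_semi hu.lip hε hT hu.semi⟩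

/-- the first step, with `T = A⁻¹`, creates semiconcavity -/
theorem SC_first {A : ℝ} (hA : 0 < A)
    (hlip : ∀ x y, u x - u y ≤ ‖x - y‖) :
    SC A (H607.step ((A⁻¹ : ℝ) • ContinuousLinearMap.id ℝ _) u) := by
  have hT : ∀ w : EuclideanSpace ℝ (Fin n), A⁻¹ * ‖w‖ ^ 2
      ≤ inner ℝ (((A⁻¹ : ℝ) • ContinuousLinearMap.id ℝ (EuclideanSpace ℝ (Fin n))) w) w := by
    intro w
    rw [_root_.smul_apply, ContinuousLinearMap.id_apply, inner_smul_left,
      real_inner_self_eq_norm_sq]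
    simp
  have hA' : 0 < A⁻¹ := inv_pos.2 hA
  refine ⟨step_lip hlip hA' hT, fun x => ?_⟩
  obtain ⟨w, hw, -⟩ := step_min hlip hA' hT x
  refine ⟨w, fun z => ?_⟩
  obtain ⟨-, -, h⟩ := step_min hlip hA' hT (x + z)
  have h1 := h (w + A • z)
  have e : x + z - ((A⁻¹ : ℝ) • ContinuousLinearMap.id ℝ (EuclideanSpace ℝ (Fin n))) (w + A • z)
      = x - ((A⁻¹ : ℝ) • ContinuousLinearMap.id ℝ (EuclideanSpace ℝ (Fin n))) w := by
    simp only [_root_.smul_apply, ContinuousLinearMap.id_apply, smul_add, smul_smul,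
      inv_mul_cancel₀ hA.ne', one_smul]
    abel
  rw [e] at h1
  rw [hw]
  have e2 : inner ℝ (((A⁻¹ : ℝ) • ContinuousLinearMap.id ℝ (EuclideanSpace ℝ (Fin n)))
      (w + A • z)) (w + A • z) / 2
      = inner ℝ (((A⁻¹ : ℝ) • ContinuousLinearMap.id ℝ (EuclideanSpace ℝ (Fin n))) w) w / 2
        + inner ℝ w z + A / 2 * ‖z‖ ^ 2 := by
    simp only [_root_.smul_apply, ContinuousLinearMap.id_apply, inner_smul_left,
      inner_add_left, inner_add_right, inner_smul_right, real_inner_self_eq_norm_sq,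
      RCLike.conj_to_real]
    rw [real_inner_comm w z]
    field_simp
    ring
  rw [e2] at h1
  linarith

theorem U_SC {A : ℝ} {v : EuclideanSpace ℝ (Fin n) → ℝ}
    {TT : ℕ → (EuclideanSpace ℝ (Fin n) →L[ℝ] EuclideanSpace ℝ (Fin n))}
    (hA : 0 < A) (hlip : ∀ x y, v x - v y ≤ ‖x - y‖)
    (hT : ∀ k, ∃ ε, 0 < ε ∧ ∀ w, ε * ‖w‖ ^ 2 ≤ inner ℝ (TT k w) w)
    (hT0 : TT 0 = (A⁻¹ : ℝ) • ContinuousLinearMap.id ℝ _) (k : ℕ) :
    SC A (U TT v (k + 1)) := by
  induction k with
  | zero =>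
    change SC A (H607.step (TT 0) v)
    rw [hT0]
    exact SC_first hA hlip
  | succ k ih =>
    obtain ⟨ε, hε, h⟩ := hT (k + 1)
    exact ih.step hε h

theorem CA.grad_le {A : ℝ} (hu : CA A u) (x : EuclideanSpace ℝ (Fin n)) :
    ‖gradient u x‖ ≤ 1 := by
  have h := norm_fderiv_le_of_lipschitz ℝ (x₀ := x) (lipschitz_of hu.lip)
  rw [gradient, LinearIsometryEquiv.norm_map]
  simpa using h

/-- the pointwise decrease in one step -/
theorem CA.step_le {A : ℝ} (hu : CA A u) (hε : 0 < ε)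
    (hT : ∀ w, ε * ‖w‖ ^ 2 ≤ inner ℝ (T w) w) (x : EuclideanSpace ℝ (Fin n)) :
    H607.step T u x ≤ u x - inner ℝ (T (gradient u x)) (gradient u x) / 2
      + A / 2 * ‖T (gradient u x)‖ ^ 2 := by
  obtain ⟨-, -, h⟩ := step_min hu.lip hε hT x
  have h1 := h (gradient u x)
  have h2 := hu.up x (-(T (gradient u x)))
  rw [inner_neg_right, norm_neg, ← sub_eq_add_neg] at h2
  rw [real_inner_comm] at h2
  linarith

theorem SC.conc {A : ℝ} (hu : SC A u) {a b : ℝ} (ha : 0 ≤ a) (hb : 0 ≤ b) (hab : a + b = 1)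
    (x y : EuclideanSpace ℝ (Fin n)) :
    a * u x + b * u y ≤ u (a • x + b • y) + A / 2 * (a * b) * ‖x - y‖ ^ 2 := by
  obtain ⟨p, hp⟩ := hu.semi (a • x + b • y)
  have h1 := hp (b • (x - y))
  have h2 := hp (-(a • (x - y)))
  obtain rfl : b = 1 - a := by linarith
  have e1 : a • x + (1 - a) • y + (1 - a) • (x - y) = x := by module
  have e2 : a • x + (1 - a) • y + -(a • (x - y)) = y := by module
  rw [e1, inner_smul_right, norm_smul, mul_pow, Real.norm_eq_abs, sq_abs] at h1
  rw [e2, inner_neg_right, inner_smul_right, norm_neg, norm_smul, mul_pow, Real.norm_eq_abs,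
    sq_abs] at h2
  have h3 := mul_le_mul_of_nonneg_left h1 ha
  have h4 := mul_le_mul_of_nonneg_left h2 hb
  linarith

theorem mol_int {f : EuclideanSpace ℝ (Fin n) → ℝ} (hf : Continuous f) (m : ℕ)
    (x : EuclideanSpace ℝ (Fin n)) :
    Integrable (fun t => (bmp n m).normed volume t * f (x - t)) := by
  have hc : Continuous (fun t => (bmp n m).normed volume t * f (x - t)) :=
    (bmp n m).continuous_normed.mul (hf.comp (by fun_prop))
  exact hc.integrable_of_hasCompactSupport ((bmp n m).hasCompactSupport_normed.mul_right)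

theorem mol_three {f : EuclideanSpace ℝ (Fin n) → ℝ} (hf : Continuous f) (m : ℕ) {a b c : ℝ}
    {x y z : EuclideanSpace ℝ (Fin n)}
    (h : ∀ t, a * f (x - t) + b * f (y - t) ≤ f (z - t) + c) :
    a * mol f m x + b * mol f m y ≤ mol f m z + c := by
  have hc : ∫ t, (bmp n m).normed volume t * c = c := by
    rw [integral_mul_const, (bmp n m).integral_normed, one_mul]
  have i1 := (mol_int hf m x).const_mul a
  have i2 := (mol_int hf m y).const_mul b
  have i3 := mol_int hf m z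
  have i4 : Integrable (fun t => (bmp n m).normed volume t * c) :=
    ((bmp n m).integrable_normed).mul_const c
  have s1 : a * mol f m x + b * mol f m y
      = ∫ t, (a * ((bmp n m).normed volume t * f (x - t))
        + b * ((bmp n m).normed volume t * f (y - t))) := by
    rw [integral_add i1 i2, integral_const_mul, integral_const_mul, mol_apply, mol_apply]
  have s2 : mol f m z + c
      = ∫ t, ((bmp n m).normed volume t * f (z - t) + (bmp n m).normed volume t * c) := by
    rw [integral_add i3 i4, hc, mol_apply]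
  rw [s1, s2]
  refine integral_mono (i1.add i2) (i3.add i4) fun t => ?_
  have := mul_le_mul_of_nonneg_left (h t) ((bmp n m).nonneg_normed (μ := volume) t)
  simp only
  linarith

theorem CA_of {A : ℝ} {f : EuclideanSpace ℝ (Fin n) → ℝ} (hd : ContDiff ℝ 1 f)
    (hl : ∀ x y, f x - f y ≤ ‖x - y‖)
    (hc : ∀ a b : ℝ, 0 ≤ a → 0 ≤ b → a + b = 1 → ∀ x y,
      a * f x + b * f y ≤ f (a • x + b • y) + A / 2 * (a * b) * ‖x - y‖ ^ 2) : CA A f := by
  refine ⟨hd, hl, fun x w => ?_⟩
  have hg : HasGradientAt f (gradient f x) x :=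
    ((hd.differentiable (by norm_num)) x).hasGradientAt
  have h1 : HasDerivAt (fun s : ℝ => f (x + s • w)) (inner ℝ (gradient f x) w) 0 := by
    have h2 : HasFDerivAt f (InnerProductSpace.toDual ℝ (EuclideanSpace ℝ (Fin n)) (gradient f x))
        (x + (0 : ℝ) • w) := by
      have := hg.hasFDerivAt
      simpa using this
    have h3 : HasDerivAt (fun s : ℝ => x + s • w) w 0 := by
      simpa using ((hasDerivAt_id (0 : ℝ)).smul_const w).const_add x
    have h4 := h2.comp_hasDerivAt (0 : ℝ) h3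
    exact h4
  have h5 := h1.tendsto_slope_zero_right
  have h6 : Tendsto (fun s : ℝ => f x + s⁻¹ • (f (x + (0 + s) • w) - f (x + (0 : ℝ) • w))
      + A / 2 * (1 - s) * ‖w‖ ^ 2) (𝓝[>] 0)
      (𝓝 (f x + inner ℝ (gradient f x) w + A / 2 * (1 - 0) * ‖w‖ ^ 2)) := by
    refine (tendsto_const_nhds.add h5).add ?_
    have h7 : Continuous fun s : ℝ => A / 2 * (1 - s) * ‖w‖ ^ 2 := by fun_prop
    exact (h7.tendsto 0).mono_left nhdsWithin_le_nhds
  have h8 : f (x + w) ≤ f x + inner ℝ (gradient f x) w + A / 2 * (1 - 0) * ‖w‖ ^ 2 := by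
    refine ge_of_tendsto h6 ?_
    have h9 : Ioo (0 : ℝ) 1 ∈ 𝓝[>] (0 : ℝ) := Ioo_mem_nhdsGT one_pos
    filter_upwards [h9] with s hs
    have h10 := hc s (1 - s) hs.1.le (by linarith [hs.2]) (by ring) (x + w) x
    have e1 : s • (x + w) + (1 - s) • x = x + s • w := by module
    have e2 : x + w - x = w := by abel
    rw [e1, e2] at h10
    rw [zero_add, zero_smul, add_zero, smul_eq_mul]
    have h11 : s * (f (x + w)) ≤ s * (f x + s⁻¹ * (f (x + s • w) - f x)
        + A / 2 * (1 - s) * ‖w‖ ^ 2) := by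
      have : s * (s⁻¹ * (f (x + s • w) - f x)) = f (x + s • w) - f x := by
        rw [← mul_assoc, mul_inv_cancel₀ hs.1.ne', one_mul]
      have h12 : s * (f x + s⁻¹ * (f (x + s • w) - f x) + A / 2 * (1 - s) * ‖w‖ ^ 2)
          = s * f x + (f (x + s • w) - f x) + A / 2 * (s * (1 - s)) * ‖w‖ ^ 2 := by
        rw [mul_add, mul_add, this]; ring
      rw [h12]
      linarith
    exact le_of_mul_le_mul_left h11 hs.1
  linarith

theorem SC.mol {A : ℝ} (hu : SC A u) (m : ℕ) : CA A (mol u m) := by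
  have hcont : Continuous u := (lipschitz_of hu.lip).continuous
  refine CA_of ((mol_contDiff hcont m).of_le (by exact_mod_cast le_top)) (fun x y => ?_)
    (fun a b ha hb hab x y => ?_)
  · have h := mol_three hcont m (a := 1) (b := 0) (c := ‖x - y‖) (x := x) (y := x) (z := y)
      (fun t => by
        have h1 := hu.lip (x - t) (y - t)
        have e : x - t - (y - t) = x - y := by abel
        rw [e] at h1
        linarith)
    linarith
  · refine mol_three hcont m fun t => ?_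
    have h1 := hu.conc ha hb hab (x - t) (y - t)
    have e : x - t - (y - t) = x - y := by abel
    have e2 : a • (x - t) + b • (y - t) = a • x + b • y - t := by
      obtain rfl : b = 1 - a := by linarith
      module
    rw [e, e2] at h1
    exact h1

theorem SC.mol_near {A : ℝ} (hu : SC A u) (m : ℕ) (x : EuclideanSpace ℝ (Fin n)) :
    |H607.mol u m x - u x| ≤ 1 / ((m : ℝ) + 1) := by
  have hcont : Continuous u := (lipschitz_of hu.lip).continuous
  have h := (bmp n m).dist_normed_convolution_le (μ := volume) (g := u) (x₀ := x)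
    (ε := 1 / ((m : ℝ) + 1)) hcont.aestronglyMeasurable (by
      intro y hy
      have h1 := (lipschitz_of hu.lip).dist_le_mul y x
      rw [NNReal.coe_one, one_mul] at h1
      exact h1.trans (le_of_lt hy))
  rw [Real.dist_eq] at h
  exact h

theorem step_mono {u u' : EuclideanSpace ℝ (Fin n) → ℝ} (hlip : ∀ x y, u x - u y ≤ ‖x - y‖)
    (hlip' : ∀ x y, u' x - u' y ≤ ‖x - y‖) (hε : 0 < ε)
    (hT : ∀ w, ε * ‖w‖ ^ 2 ≤ inner ℝ (T w) w) {δ : ℝ} (h : ∀ x, u x ≤ u' x + δ)
    (x : EuclideanSpace ℝ (Fin n)) : H607.step T u x ≤ H607.step T u' x + δ := by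
  obtain ⟨w, hw, -⟩ := step_min hlip' hε hT x
  obtain ⟨-, -, h1⟩ := step_min hlip hε hT x
  have h2 := h1 w
  have h3 := h (x - T w)
  linarith

end Vale.Agent.P245.H411
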