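import Vale.Agent.P245.H411.Two

open MeasureTheory Real Set Filter Topology
open scoped ENNReal NNReal ContDiff

namespace Vale.Agent.P245.H411

open Vale.Agent.P245.H607

variable {n : ℕ} {μ : Measure (EuclideanSpace ℝ (Fin n))} {F : EuclideanSpace ℝ (Fin n) → ℝ}

theorem beta_bound [IsProbabilityMeasure μ] {a C0 : ℝ} (ha : 0 < a) (hC0 : 0 < C0) (hK : KLS C0)
    (hlc : HasLogConcaveDensity μ) (hsub : LinearlySubgaussian μ a)
    (hF : LipschitzWith 1 F) (hconvF : ConvexOn ℝ univ F)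
    {v : EuclideanSpace ℝ (Fin n) → ℝ} (hvlip : ∀ x y, v x - v y ≤ ‖x - y‖)
    {t β : ℝ} (ht : 0 < t) (hβ : 0 < β) :
    ∫ x, v x ∂(nu μ F 0) - ∫ x, v x ∂(nu μ F t) ≤ 2 * a ^ 2 * t * β
      + C0 / (2 * β) * (mm μ F 0 - mm μ F t) + 4 * a * √(t * (mm μ F 0 - mm μ F t)) := by
  have h := std_of ha hsub hF
  set D := mm μ F 0 - mm μ F t with hD
  have hD0 : 0 ≤ D := sub_nonneg.2 (mm_anti h ht.le)
  have hcont : Continuous (mm μ F) := H767.continuous_tilted ha hsub hF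
  have hinv : Tendsto (fun N : ℕ => t / (N : ℝ)) atTop (𝓝 0) :=
    tendsto_const_div_atTop_nhds_zero_nat t
  have stepA : ∀ A : ℝ, 0 < A → ∫ x, v x ∂(nu μ F 0) - ∫ x, v x ∂(nu μ F t)
      ≤ (A⁻¹ + β * t * (4 * a ^ 2 + A⁻¹)) / 2
      + 0 + C0 / (2 * β) * (D * exp (0 * D)) + 4 * a * √(t * D) := by
    intro A hA
    set κ := 2 * a ^ 2 * (t * D + (0.6932 + 0.3466 * n)) + A⁻¹ with hκ
    have l1 : Tendsto (fun N : ℕ => (N : ℝ) * (A / 2 * (t / N * β * κ) ^ 2)) atTop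
        (𝓝 0) := by
      have l0 : Tendsto (fun N : ℕ => (A / 2 * (t * β * κ) ^ 2) / (N : ℝ)) atTop (𝓝 0) :=
        tendsto_const_div_atTop_nhds_zero_nat _
      refine l0.congr' ?_
      filter_upwards [eventually_gt_atTop 0] with N hN
      have : (N : ℝ) ≠ 0 := Nat.cast_ne_zero.2 hN.ne'
      field_simp
    have l2 : Tendsto (fun N : ℕ => mm μ F 0 - mm μ F (t + t / (N : ℝ))) atTop (𝓝 D) := by
      apply tendsto_const_nhds.sub
      have l3 : Tendsto (fun N : ℕ => t + t / (N : ℝ)) atTop (𝓝 t) := by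
        simpa using tendsto_const_nhds.add hinv
      exact (hcont.tendsto t).comp l3
    have l4 : Tendsto (fun N : ℕ => exp (t / N * (mm μ F 0 - mm μ F (t + t / N)))) atTop
        (𝓝 (exp (0 * D))) := (continuous_exp.tendsto _).comp (hinv.mul l2)
    have l5 : Tendsto (fun N : ℕ => (A⁻¹ + β * t * (4 * a ^ 2 + A⁻¹)) / 2
      + (N : ℝ) * (A / 2 * (t / N * β * κ) ^ 2)
      + C0 / (2 * β) * ((mm μ F 0 - mm μ F (t + t / N))
        * exp (t / N * (mm μ F 0 - mm μ F (t + t / N))))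
      + 4 * a * √(t * D)) atTop (𝓝 ((A⁻¹ + β * t * (4 * a ^ 2 + A⁻¹)) / 2
      + 0 + C0 / (2 * β) * (D * exp (0 * D)) + 4 * a * √(t * D))) :=
      (((tendsto_const_nhds.add l1).add ((l2.mul l4).const_mul _)).add tendsto_const_nhds)
    refine ge_of_tendsto l5 ?_
    filter_upwards [eventually_gt_atTop 0] with N hN
    exact ineqS ha hC0 hK hlc hsub hF h hconvF hvlip hA ht hβ hN
  have h3 : ∀ δ : ℝ, 0 < δ → ∫ x, v x ∂(nu μ F 0) - ∫ x, v x ∂(nu μ F t)
      ≤ (2 * a ^ 2 * t * β + C0 / (2 * β) * D + 4 * a * √(t * D)) + δ * (1 + β * t) := by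
    intro δ hδ
    have h4 := stepA δ⁻¹ (inv_pos.2 hδ)
    have h5 : 0 ≤ δ * (1 + β * t) := by positivity
    rw [inv_inv, zero_mul, exp_zero] at h4
    linarith
  have hpos : 0 < 1 + β * t := by positivity
  refine le_of_forall_pos_le_add fun e he => ?_
  have := h3 (e / (1 + β * t)) (by positivity)
  rwa [div_mul_cancel₀ _ hpos.ne'] at this

/-- the shift of any `1`-Lipschitz function under the tilt by a convex function -/
theorem t1 [IsProbabilityMeasure μ] {a C0 : ℝ} (ha : 0 < a) (hC0 : 0 < C0) (hK : KLS C0)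
    (hlc : HasLogConcaveDensity μ) (hsub : LinearlySubgaussian μ a)
    (hF : LipschitzWith 1 F) (hconvF : ConvexOn ℝ univ F)
    {v : EuclideanSpace ℝ (Fin n) → ℝ} (hvlip : ∀ x y, v x - v y ≤ ‖x - y‖)
    {t : ℝ} (ht : 0 < t) :
    ∫ x, v x ∂(nu μ F 0) - ∫ x, v x ∂(nu μ F t)
      ≤ (2 * √C0 + 4) * a * √(t * (mm μ F 0 - mm μ F t)) := by
  have h := std_of ha hsub hF
  set D := mm μ F 0 - mm μ F t with hD
  have hD0 : 0 ≤ D := sub_nonneg.2 (mm_anti h ht.le)
  set X := ∫ x, v x ∂(nu μ F 0) - ∫ x, v x ∂(nu μ F t) with hX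
  set Y := X - 4 * a * √(t * D) with hY
  have hY1 : Y ≤ 2 * √C0 * a * √(t * D) := by
    rcases le_or_gt Y 0 with h0 | h0
    · exact h0.trans (by positivity)
    · have h1 := beta_bound ha hC0 hK hlc hsub hF hconvF hvlip ht
        (β := Y / (4 * a ^ 2 * t)) (by positivity)
      rw [← hD, ← hX] at h1
      have e1 : 2 * a ^ 2 * t * (Y / (4 * a ^ 2 * t)) = Y / 2 := by field_simp; ring
      have e2 : C0 / (2 * (Y / (4 * a ^ 2 * t))) * D = 2 * C0 * a ^ 2 * (t * D) / Y := by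
        field_simp; ring
      rw [e1, e2] at h1
      have h2 : Y / 2 ≤ 2 * C0 * a ^ 2 * (t * D) / Y := by linarith
      rw [le_div_iff₀ h0] at h2
      have h3 : Y ^ 2 ≤ (2 * √C0 * a * √(t * D)) ^ 2 := by
        have s1 := Real.sq_sqrt hC0.le
        have s2 := Real.sq_sqrt (mul_nonneg ht.le hD0)
        have : (2 * √C0 * a * √(t * D)) ^ 2 = 4 * C0 * a ^ 2 * (t * D) := by
          rw [mul_pow, mul_pow, mul_pow, s1, s2]; ring
        rw [this]
        nlinarith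
      exact (abs_le_of_sq_le_sq' h3 (by positivity)).2
  have : X = Y + 4 * a * √(t * D) := by rw [hY]; ring
  rw [this]
  linarith

/-- **Kantorovich transport inequality for all log-concave tilts.** -/
theorem tilt_transport [IsProbabilityMeasure μ] {a C0 : ℝ} (ha : 0 < a) (hC0 : 0 < C0)
    (hK : KLS C0) (hlc : HasLogConcaveDensity μ) (hsub : LinearlySubgaussian μ a)
    {G : EuclideanSpace ℝ (Fin n) → ℝ} {L : ℝ≥0} (hG : LipschitzWith L G)
    (hconvG : ConvexOn ℝ univ G)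
    {v : EuclideanSpace ℝ (Fin n) → ℝ} (hv : LipschitzWith 1 v) :
    (∫ x, v x ∂μ - ∫ x, v x ∂(μ.tilted fun x => -G x)) ^ 2
      ≤ (2 * √C0 + 4) ^ 2 * a ^ 2 * (∫ x, G x ∂μ - ∫ x, G x ∂(μ.tilted fun x => -G x)) := by
  set t : ℝ := (L : ℝ) + 1 with ht
  have htp : 0 < t := by positivity
  set F : EuclideanSpace ℝ (Fin n) → ℝ := fun x => t⁻¹ * G x with hFdef
  have hF : LipschitzWith 1 F := by
    apply LipschitzWith.of_dist_le_mul
    intro x y
    rw [Real.dist_eq, NNReal.coe_one, one_mul, ← mul_sub, abs_mul, abs_of_pos (inv_pos.2 htp),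
      inv_mul_le_iff₀ htp]
    have h1 := hG.dist_le_mul x y
    rw [Real.dist_eq] at h1
    refine h1.trans (mul_le_mul_of_nonneg_right (by rw [ht]; linarith) dist_nonneg)
  have hconvF : ConvexOn ℝ univ F := by
    have := hconvG.smul (inv_pos.2 htp).le
    exact this
  have h := std_of ha hsub hF
  have hGF : ∀ x, G x = t * F x := fun x => by
    rw [hFdef]; simp only; rw [← mul_assoc, mul_inv_cancel₀ htp.ne', one_mul]
  have hnut : nu μ F t = μ.tilted fun x => -G x := by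
    unfold nu
    congr 1
    funext x
    rw [hGF x]; ring
  have hnu0 : nu μ F 0 = μ := by
    unfold nu
    simp
  have hD0 : 0 ≤ mm μ F 0 - mm μ F t := sub_nonneg.2 (mm_anti h htp.le)
  have hDG : t * (mm μ F 0 - mm μ F t) = ∫ x, G x ∂μ - ∫ x, G x ∂(μ.tilted fun x => -G x) := by
    have e1 : ∀ ρ : Measure (EuclideanSpace ℝ (Fin n)), ∫ x, G x ∂ρ = t * ∫ x, F x ∂ρ :=
      fun ρ => by
        rw [← integral_const_mul]
        exact integral_congr_ae (Eventually.of_forall hGF)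
    unfold mm
    rw [hnut, hnu0, e1 μ, e1 (μ.tilted fun x => -G x), mul_sub]
  have hvl : ∀ x y, v x - v y ≤ ‖x - y‖ := by
    intro x y
    have h1 := hv.dist_le_mul x y
    rw [Real.dist_eq, dist_eq_norm, NNReal.coe_one, one_mul] at h1
    exact (le_abs_self _).trans h1
  have hvl' : ∀ x y, (fun x => -v x) x - (fun x => -v x) y ≤ ‖x - y‖ := by
    intro x y
    have h1 := hvl y x
    rw [norm_sub_rev] at h1
    simp only
    linarith
  have h1 := t1 ha hC0 hK hlc hsub hF hconvF hvl htp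
  have h2 := t1 ha hC0 hK hlc hsub hF hconvF hvl' htp
  rw [integral_neg, integral_neg] at h2
  rw [hDG, hnut, hnu0] at h1 h2
  rw [hDG.symm] at h1 h2 ⊢
  have h3 : |∫ x, v x ∂μ - ∫ x, v x ∂(μ.tilted fun x => -G x)|
      ≤ (2 * √C0 + 4) * a * √(t * (mm μ F 0 - mm μ F t)) := by
    rw [abs_le]
    constructor <;> linarith
  have h4 := pow_le_pow_left₀ (abs_nonneg _) h3 2
  rw [sq_abs, mul_pow, mul_pow, Real.sq_sqrt (mul_nonneg htp.le hD0)] at h4
  exact h4

end Vale.Agent.P245.H411
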