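import Vale.Agent.P245.H902.Clause
import Vale.Agent.P245.K.All

/-!
P245: the transport inequality between log-concave laws, without hypotheses.
-/

open MeasureTheory

namespace Vale.Agent.P245.H411

open Vale.Agent.P245

theorem transport_final : ∃ C : ℝ, 0 < C ∧ ∀ (n : ℕ) (μ : Measure (EuclideanSpace ℝ (Fin n)))
    [IsProbabilityMeasure μ], HasLogConcaveDensity μ → ∀ a : ℝ, 0 < a →
    LinearlySubgaussian μ a → LogConcaveTransport μ C a ∧ LogConcaveTiltConcentration μ C a := by
  obtain ⟨C0, hC0, hK⟩ := K.kls_final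
  refine ⟨(2 * √C0 + 4) ^ 2, by positivity, fun n μ _ _ a ha hsub => ?_⟩
  exact ⟨H902.logConcaveTransport_of hC0 hK le_rfl ha hsub,
    H902.logConcaveTiltConcentration_of hC0 hK le_rfl ha hsub⟩

end Vale.Agent.P245.H411
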