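import Vale.Agent.P245.H411.One
import Vale.Agent.P245.H607.Final

open MeasureTheory Real Set Filter Topology
open scoped ENNReal ContDiff

namespace Vale.Agent.P245.H411

open Vale.Agent.P245.H607

variable {n : ℕ} {μ : Measure (EuclideanSpace ℝ (Fin n))} {F : EuclideanSpace ℝ (Fin n) → ℝ}

/-- the scheme with fixed parameters, any Lipschitz test function -/
theorem fixedS (h : Std μ F) {v : EuclideanSpace ℝ (Fin n) → ℝ} (hFl : ∀ x y, v x - v y ≤ ‖x - y‖)
    {A t β C0 κ ε M : ℝ} (hA : 0 < A)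
    (ht : 0 < t) (hβ : 0 < β) (hC0 : 0 < C0) (hκ : 0 ≤ κ) (hε : 0 < ε) (hM : 0 ≤ M)
    {N : ℕ} (hN : 0 < N)
    (Kop : ℕ → (EuclideanSpace ℝ (Fin n) →L[ℝ] EuclideanSpace ℝ (Fin n)))
    (hK0 : ∀ i, ∀ w, 0 ≤ inner ℝ (Kop i w) w)
    (hKs : ∀ i, ∀ w w', inner ℝ (Kop i w) w' = inner ℝ w (Kop i w'))
    (hKκ : ∀ i, i < N → ∀ w, ‖Kop i w‖ ≤ κ * ‖w‖)
    (hP : ∀ i, i < N → ∀ u : EuclideanSpace ℝ (Fin n) → ℝ, CA A u →
      (∫ x, u x ^ 2 ∂(nu μ F (i * (t / N)))) - (∫ x, u x ∂(nu μ F (i * (t / N)))) ^ 2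
      ≤ C0 * ∫ x, inner ℝ (Kop i (gradient u x)) (gradient u x) ∂(nu μ F (i * (t / N))))
    (pr : EuclideanSpace ℝ (Fin n) →L[ℝ] EuclideanSpace ℝ (Fin n))
    (hpr : ∀ x, ‖pr x‖ ≤ ‖x‖) (hpr2 : ∀ x, pr (pr x) = pr x)
    (hprs : ∀ x y, inner ℝ (pr x) y = inner ℝ x (pr y))
    (hBM : ∀ e, ‖e‖ = 1 → pr e = e →
      ∑ i ∈ Finset.range N, inner ℝ (Kop i e) e ≤ N * M) :
    ∫ x, v x ∂(nu μ F 0) - ∫ x, v x ∂(nu μ F t) ≤ (A⁻¹ + β * t * (M + ε)) / 2
      + N * (A / 2 * (t / N * β * (κ + ε)) ^ 2)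
      + C0 / (2 * β) * ((mm μ F 0 - mm μ F (t + t / N))
        * exp (t / N * (mm μ F 0 - mm μ F (t + t / N))))
      + ∫ x, ‖x - pr x‖ ∂(nu μ F 0) + ∫ x, ‖x - pr x‖ ∂(nu μ F t) := by
  have hN' : (0 : ℝ) < N := Nat.cast_pos.2 hN
  set r := t / N with hr
  have hr0 : 0 < r := div_pos ht hN'
  have hNr : (N : ℝ) * r = t := by rw [hr]; field_simp
  set τ := r * β with hτ
  have hτ0 : 0 < τ := mul_pos hr0 hβ
  have hNτ : (N : ℝ) * τ = β * t := by rw [hτ, ← mul_assoc, hNr]; ring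
  have hvl : ∀ x y, v (pr x) - v (pr y) ≤ ‖x - y‖ := fun x y => by
    refine (hFl _ _).trans ?_
    rw [← map_sub]; exact hpr _
  have h1 := teleS h hA hvl hC0 hτ0 hε hκ N Kop hK0 hKκ hP
  have h2 := dd_sum_exp h N hr0.le
  rw [hNr] at h1 h2
  set D := mm μ F 0 - mm μ F (t + r) with hD
  set c := (A⁻¹ + β * t * (M + ε)) / 2 with hc
  have hc0 : 0 ≤ c := by
    have : 0 ≤ A⁻¹ := (inv_pos.2 hA).le
    have h3 : 0 ≤ β * t * (M + ε) := by positivity
    rw [hc]; linarith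
  have hTc := TS_coer (N := N) (Kop := Kop) hA hτ0 hε hK0
  have hTs := TS_symm (A := A) (τ := τ) (ε := ε) (N := N) (Kop := Kop) hKs
  have hge := U_ge (TT := TS A τ ε N Kop) hFl pr hpr hpr2 hprs hTc hTs (N + 1) hc0 (by
    intro e he1 he2
    rw [Finset.sum_range_succ']
    have e1 : ∀ k, inner ℝ (TS A τ ε N Kop (k + 1) e) e
        = τ * (inner ℝ (Kop (N - 1 - k) e) e + ε) := fun k => by
      rw [TS_succ_inner, he1]; ring
    rw [TS_zero_inner, he1]
    simp_rw [e1]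
    rw [Finset.sum_range_reflect (fun i => τ * (inner ℝ (Kop i e) e + ε)) N, ← Finset.mul_sum,
      Finset.sum_add_distrib, Finset.sum_const, Finset.card_range, nsmul_eq_mul]
    have h3 := hBM e he1 he2
    have h4 : τ * (∑ i ∈ Finset.range N, inner ℝ (Kop i e) e + N * ε) ≤ τ * (N * M + N * ε) :=
      mul_le_mul_of_nonneg_left (by linarith) hτ0.le
    have h5 : τ * (N * M + N * ε) = β * t * (M + ε) := by rw [← hNτ]; ring
    rw [hc]
    linarith)
  have iu := integrable_lip h 0 (U_lip hvl hTc (N + 1))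
  have iv0 := integrable_lip h 0 hvl
  have ivt := integrable_lip h t hvl
  have hp0 := h.prob_nu 0
  have hpt := h.prob_nu t
  have h3 : ∫ x, v (pr x) ∂(nu μ F 0) - c
      ≤ ∫ x, U (TS A τ ε N Kop) (fun x => v (pr x)) (N + 1) x ∂(nu μ F 0) := by
    have h4 : ∫ x, (v (pr x) - c) ∂(nu μ F 0)
        ≤ ∫ x, U (TS A τ ε N Kop) (fun x => v (pr x)) (N + 1) x ∂(nu μ F 0) :=
      integral_mono (iv0.sub (integrable_const _)) iu hge
    rw [integral_sub iv0 (integrable_const _), integral_const] at h4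
    simpa using h4
  have inorm : ∀ s, Integrable (fun x => ‖x - pr x‖) (nu μ F s) := by
    intro s
    have hmeas : Continuous fun x : EuclideanSpace ℝ (Fin n) => ‖x - pr x‖ := by fun_prop
    apply integrable_quad h s hmeas.aestronglyMeasurable (c := 2)
    intro x
    rw [abs_of_nonneg (norm_nonneg _)]
    have h5 : ‖x - pr x‖ ≤ ‖x‖ + ‖pr x‖ := norm_sub_le _ _
    have h6 := hpr x
    nlinarith [sq_nonneg (‖x‖ - 1)]
  have h5 : ∫ x, v x ∂(nu μ F 0) ≤ ∫ x, v (pr x) ∂(nu μ F 0) + ∫ x, ‖x - pr x‖ ∂(nu μ F 0) := by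
    rw [← integral_add iv0 (inorm 0)]
    apply integral_mono (integrable_lip h 0 hFl) (iv0.add (inorm 0))
    intro x
    have := hFl x (pr x)
    simp only [Pi.add_apply]
    linarith
  have h6 : ∫ x, v (pr x) ∂(nu μ F t) ≤ ∫ x, v x ∂(nu μ F t) + ∫ x, ‖x - pr x‖ ∂(nu μ F t) := by
    rw [← integral_add (integrable_lip h t hFl) (inorm t)]
    apply integral_mono ivt ((integrable_lip h t hFl).add (inorm t))
    intro x
    have := hFl (pr x) x
    rw [norm_sub_rev] at this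
    simp only [Pi.add_apply]
    linarith
  have h7 : C0 / (2 * τ) * ∑ i ∈ Finset.range N, (exp (dd μ F r i) - 1)
      ≤ C0 / (2 * β) * (D * exp (r * D)) := by
    have h8 : C0 / (2 * τ) * ∑ i ∈ Finset.range N, (exp (dd μ F r i) - 1)
        ≤ C0 / (2 * τ) * (r * D * exp (r * D)) :=
      mul_le_mul_of_nonneg_left h2 (by positivity)
    refine h8.trans (le_of_eq ?_)
    rw [hτ]
    field_simp
  linarith

/-- the inequality for fixed `A`, `N` and `β`, any Lipschitz test function -/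
theorem ineqS [IsProbabilityMeasure μ] {a C0 : ℝ} (ha : 0 < a) (hC0 : 0 < C0) (hK : KLS C0)
    (hlc : HasLogConcaveDensity μ) (hsub : LinearlySubgaussian μ a)
    (hF : LipschitzWith 1 F) (h : Std μ F) (hconvF : ConvexOn ℝ univ F)
    {v : EuclideanSpace ℝ (Fin n) → ℝ} (hvlip : ∀ x y, v x - v y ≤ ‖x - y‖)
    {A t β : ℝ} (hA : 0 < A) (ht : 0 < t) (hβ : 0 < β) {N : ℕ} (hN : 0 < N) :
    ∫ x, v x ∂(nu μ F 0) - ∫ x, v x ∂(nu μ F t) ≤ (A⁻¹ + β * t * (4 * a ^ 2 + A⁻¹)) / 2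
      + N * (A / 2 * (t / N * β
        * (2 * a ^ 2 * (t * (mm μ F 0 - mm μ F t) + (0.6932 + 0.3466 * n)) + A⁻¹)) ^ 2)
      + C0 / (2 * β) * ((mm μ F 0 - mm μ F (t + t / N))
        * exp (t / N * (mm μ F 0 - mm μ F (t + t / N))))
      + 4 * a * √(t * (mm μ F 0 - mm μ F t)) := by
  have hN' : (0 : ℝ) < N := Nat.cast_pos.2 hN
  set D := mm μ F 0 - mm μ F t with hD
  have hD0 : 0 ≤ D := sub_nonneg.2 (mm_anti h ht.le)
  have htD : 0 ≤ t * D := mul_nonneg ht.le hD0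
  -- covariance operators
  have hcov : ∀ i : ℕ, ∃ T : EuclideanSpace ℝ (Fin n) →L[ℝ] EuclideanSpace ℝ (Fin n),
      (∀ w w', inner ℝ (T w) w' = inner ℝ w (T w')) ∧ (∀ w, 0 ≤ inner ℝ (T w) w) ∧
      (∀ w, inner ℝ (T w) w ≤ ∫ x, inner ℝ w x ^ 2 ∂(nu μ F (i * (t / N)))) ∧
      (∀ w, ‖T w‖ ≤ (∫ x, ‖x‖ ^ 2 ∂(nu μ F (i * (t / N)))) * ‖w‖) ∧
      (∀ u : EuclideanSpace ℝ (Fin n) → ℝ, CA A u →
      (∫ x, u x ^ 2 ∂(nu μ F (i * (t / N)))) - (∫ x, u x ∂(nu μ F (i * (t / N)))) ^ 2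
      ≤ C0 * ∫ x, inner ℝ (T (gradient u x)) (gradient u x) ∂(nu μ F (i * (t / N)))) := by
    intro i
    have hp := h.prob_nu (i * (t / N))
    have hs : (0 : ℝ) ≤ i * (t / N) := by positivity
    have h2 : Integrable (fun x => ‖x‖ ^ 2) (nu μ F (i * (t / N))) :=
      H767.tilted_norm_sq ha hsub hF _
    obtain ⟨b, K, T, hb, hKK, hT1, hT2, hT3, hT4, hT5⟩ := cov h2
    refine ⟨T, hT2, hT3, hT4, hT5, fun u hu => ?_⟩
    have hlc' : HasLogConcaveDensity (nu μ F (i * (t / N))) :=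
      H767.tilted_logConcave ha hsub hlc hF hconvF hs
    have h3 := ext h2 C0 K (hK n _ hlc' b K hb hKK) hu.diff (L := 1) hu.grad_le
    simp_rw [hT1] at h3
    exact h3
  choose Kop hKs hK0 hKle hKn hP using hcov
  -- bounds
  have hile : ∀ i, i < N → (i : ℝ) * (t / N) ≤ t := by
    intro i hi
    have : (i : ℝ) ≤ N := Nat.cast_le.2 hi.le
    calc (i : ℝ) * (t / N) ≤ N * (t / N) := mul_le_mul_of_nonneg_right this (by positivity)
      _ = t := by field_simp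
  set κ := 2 * a ^ 2 * (t * D + (0.6932 + 0.3466 * n)) with hκ
  have hκ0 : 0 ≤ κ := by
    have : (0 : ℝ) ≤ n := Nat.cast_nonneg n
    positivity
  have hKκ : ∀ i, i < N → ∀ w, ‖Kop i w‖ ≤ κ * ‖w‖ := by
    intro i hi w
    refine (hKn i w).trans (mul_le_mul_of_nonneg_right ?_ (norm_nonneg _))
    have h1 := (proj_le ha hsub hF h (EuclideanSpace.basisFun (Fin n) ℝ).orthonormal Finset.univ
      (s := i * (t / N)) (t := t) (by positivity) (hile i hi)).2
    have e : ∀ x : EuclideanSpace ℝ (Fin n),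
        ∑ i, inner ℝ ((EuclideanSpace.basisFun (Fin n) ℝ) i) x ^ 2 = ‖x‖ ^ 2 := by
      intro x
      have := (EuclideanSpace.basisFun (Fin n) ℝ).sum_sq_norm_inner_right x
      simpa using this
    simp_rw [e] at h1
    simpa using h1
  -- spectral projection of the average
  set B : EuclideanSpace ℝ (Fin n) →L[ℝ] EuclideanSpace ℝ (Fin n) :=
    ∑ i ∈ Finset.range N, Kop i with hB
  have hBin : ∀ w w', inner ℝ (B w) w' = ∑ i ∈ Finset.range N, inner ℝ (Kop i w) w' := by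
    intro w w'
    rw [hB, _root_.sum_apply, sum_inner]
  have hBs : ∀ x y, inner ℝ (B x) y = inner ℝ x (B y) := by
    intro x y
    rw [hBin, real_inner_comm, hBin]
    apply Finset.sum_congr rfl
    intro i _
    rw [hKs, real_inner_comm]
  obtain ⟨w0, S, pr, hv, hSM, hpr, hpr2, hprs, hBM, hnorm⟩ := spec B hBs (N * (4 * a ^ 2))
  have hmain := fixedS h hvlip hA ht (β := β) hβ hC0 hκ0
    (inv_pos.2 hA) (M := 4 * a ^ 2) (by positivity) hN Kop hK0 hKs hKκ
    (fun i _ => hP i) pr hpr hpr2 hprs (by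
      intro e he1 he2
      have := hBM e he1 he2
      rw [hBin] at this
      exact this)
  -- the rank
  have hcard : (S.card : ℝ) * (3.3068) ≤ 2 * (t * D) + 1.3864 := by
    have h1 : (S.card : ℝ) * (N * (4 * a ^ 2)) ≤ ∑ i ∈ S, inner ℝ (B (w0 i)) (w0 i) := by
      have := Finset.card_nsmul_le_sum S (fun i => inner ℝ (B (w0 i)) (w0 i)) (N * (4 * a ^ 2))
        (fun i hi => hSM i hi)
      rw [nsmul_eq_mul] at this
      exact this
    have h2 : ∑ i ∈ S, inner ℝ (B (w0 i)) (w0 i)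
        ≤ N * (2 * a ^ 2 * (t * D + (0.6932 + 0.3466 * S.card))) := by
      simp_rw [hBin]
      rw [Finset.sum_comm]
      have h3 : ∀ j ∈ Finset.range N, ∑ i ∈ S, inner ℝ (Kop j (w0 i)) (w0 i)
          ≤ 2 * a ^ 2 * (t * D + (0.6932 + 0.3466 * S.card)) := by
        intro j hj
        have hj' := Finset.mem_range.1 hj
        have h4 := proj_le ha hsub hF h hv S (s := j * (t / N)) (t := t) (by positivity)
          (hile j hj')
        have h5 : ∑ i ∈ S, inner ℝ (Kop j (w0 i)) (w0 i)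
            ≤ ∑ i ∈ S, ∫ x, inner ℝ (w0 i) x ^ 2 ∂(nu μ F (j * (t / N))) :=
          Finset.sum_le_sum fun i _ => hKle j (w0 i)
        rw [← integral_finsetSum] at h5
        · exact h5.trans h4.2
        · intro i _
          exact H767.integrable_inner_sq ha hsub hv i (h.int0 _)
            ((H767.tilted_lip ha hsub hF _).const_mul _)
      calc ∑ j ∈ Finset.range N, ∑ i ∈ S, inner ℝ (Kop j (w0 i)) (w0 i)
          ≤ ∑ _j ∈ Finset.range N, 2 * a ^ 2 * (t * D + (0.6932 + 0.3466 * S.card)) :=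
            Finset.sum_le_sum h3
        _ = _ := by rw [Finset.sum_const, Finset.card_range, nsmul_eq_mul]
    have h3 := h1.trans h2
    have h4 : (S.card : ℝ) * 4 ≤ 2 * (t * D + (0.6932 + 0.3466 * S.card)) := by
      have ha2 : 0 < N * a ^ 2 := by positivity
      have h5 : (N * a ^ 2) * ((S.card : ℝ) * 4)
          ≤ (N * a ^ 2) * (2 * (t * D + (0.6932 + 0.3466 * S.card))) := by
        nlinarith
      exact le_of_mul_le_mul_left h5 ha2
    linarith
  have hsqs : ∀ s : ℝ, 0 ≤ s → s ≤ t →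
      (∫ x, ‖x - pr x‖ ∂(nu μ F s)) ^ 2
        ≤ ∫ x, ∑ i ∈ S, inner ℝ (w0 i) x ^ 2 ∂(nu μ F s) := by
    intro s hs hst
    have hp := h.prob_nu s
    have h1 := (proj_le ha hsub hF h hv S hs hst).1
    have hc : Continuous fun x : EuclideanSpace ℝ (Fin n) => ‖x - pr x‖ := by fun_prop
    have h2 : MemLp (fun x : EuclideanSpace ℝ (Fin n) => ‖x - pr x‖) 2 (nu μ F s) := by
      rw [memLp_two_iff_integrable_sq hc.aestronglyMeasurable]
      simp_rw [hnorm]
      exact h1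
    have h3 : (∫ x, ‖x - pr x‖ ∂(nu μ F s)) ^ 2 ≤ ∫ x, ‖x - pr x‖ ^ 2 ∂(nu μ F s) := by
      have i1 := h2.integrable (by norm_num)
      have i2 := h2.integrable_sq
      set m0 := ∫ x, ‖x - pr x‖ ∂(nu μ F s) with hm0
      have h4 : 0 ≤ ∫ x, (‖x - pr x‖ - m0) ^ 2 ∂(nu μ F s) :=
        integral_nonneg fun x => sq_nonneg _
      have h5 : ∫ x, (‖x - pr x‖ - m0) ^ 2 ∂(nu μ F s)
          = ∫ x, ‖x - pr x‖ ^ 2 ∂(nu μ F s) - m0 ^ 2 := by
        have e1 : ∀ x : EuclideanSpace ℝ (Fin n), (‖x - pr x‖ - m0) ^ 2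
            = ‖x - pr x‖ ^ 2 - 2 * m0 * ‖x - pr x‖ + m0 ^ 2 := fun x => by ring
        simp_rw [e1]
        have c1 : ∫ x, (‖x - pr x‖ ^ 2 - 2 * m0 * ‖x - pr x‖ + m0 ^ 2) ∂(nu μ F s)
            = ∫ x, (‖x - pr x‖ ^ 2 - 2 * m0 * ‖x - pr x‖) ∂(nu μ F s)
              + ∫ _x, m0 ^ 2 ∂(nu μ F s) :=
          integral_add (i2.sub (i1.const_mul _)) (integrable_const _)
        have c2 : ∫ x, (‖x - pr x‖ ^ 2 - 2 * m0 * ‖x - pr x‖) ∂(nu μ F s)
            = ∫ x, ‖x - pr x‖ ^ 2 ∂(nu μ F s) - 2 * m0 * m0 := by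
          rw [integral_sub i2 (i1.const_mul _), integral_const_mul]
        rw [c1, c2, integral_const]
        simp
        ring
      linarith
    simp_rw [hnorm] at h3
    exact h3
  have hQ : ∫ x, ‖x - pr x‖ ∂(nu μ F 0) + ∫ x, ‖x - pr x‖ ∂(nu μ F t)
      ≤ 4 * a * √(t * D) := by
    have q0 := (hsqs 0 le_rfl ht.le).trans
      (proj_le ha hsub hF h hv S (s := 0) (t := 0) le_rfl le_rfl).2
    have qt := (hsqs t ht.le le_rfl).trans (proj_le ha hsub hF h hv S ht.le le_rfl).2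
    rw [zero_mul, zero_add] at q0
    have hs1 := Real.sqrt_nonneg (t * D)
    have hs2 := Real.sq_sqrt htD
    rcases Nat.eq_zero_or_pos S.card with hc | hc
    · have hS : S = ∅ := Finset.card_eq_zero.1 hc
      have q1 := hsqs 0 le_rfl ht.le
      have q2 := hsqs t ht.le le_rfl
      rw [hS] at q1 q2
      simp only [Finset.sum_empty, integral_zero] at q1 q2
      have z1 : ∫ x, ‖x - pr x‖ ∂(nu μ F 0) = 0 := by
        have := le_antisymm q1 (sq_nonneg _)
        exact pow_eq_zero_iff (by norm_num) |>.1 this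
      have z2 : ∫ x, ‖x - pr x‖ ∂(nu μ F t) = 0 := by
        have := le_antisymm q2 (sq_nonneg _)
        exact pow_eq_zero_iff (by norm_num) |>.1 this
      rw [z1, z2, add_zero]
      positivity
    · have hc' : (1 : ℝ) ≤ S.card := by exact_mod_cast hc
      have hk : (S.card : ℝ) ≤ 1.0417 * (t * D) := by linarith
      have a2 : 0 < a ^ 2 := by positivity
      have r0 : (∫ x, ‖x - pr x‖ ∂(nu μ F 0)) ^ 2 ≤ (1.6 * a * √(t * D)) ^ 2 := by
        have : 0.6932 + 0.3466 * (S.card : ℝ) ≤ 1.1 * (t * D) := by linarith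
        have := mul_le_mul_of_nonneg_left this (by positivity : 0 ≤ 2 * a ^ 2)
        have e : (1.6 * a * √(t * D)) ^ 2 = 2.56 * a ^ 2 * (t * D) := by
          rw [mul_pow, hs2]; ring
        have : 0 ≤ a ^ 2 * (t * D) := by positivity
        rw [e]
        linarith
      have rt : (∫ x, ‖x - pr x‖ ∂(nu μ F t)) ^ 2 ≤ (2.1 * a * √(t * D)) ^ 2 := by
        have : t * D + (0.6932 + 0.3466 * (S.card : ℝ)) ≤ 2.1 * (t * D) := by linarith
        have := mul_le_mul_of_nonneg_left this (by positivity : 0 ≤ 2 * a ^ 2)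
        have e : (2.1 * a * √(t * D)) ^ 2 = 4.41 * a ^ 2 * (t * D) := by
          rw [mul_pow, hs2]; ring
        have : 0 ≤ a ^ 2 * (t * D) := by positivity
        rw [e]
        linarith
      have l0 := abs_le_of_sq_le_sq' r0 (by positivity)
      have lt := abs_le_of_sq_le_sq' rt (by positivity)
      have : 0 ≤ a * √(t * D) := by positivity
      linarith [l0.2, lt.2]
  linarith

end Vale.Agent.P245.H411
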